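import Vale.Agent.P102.Interface

namespace Vale.Agent.Results.P102.OneSetCriterion

open MeasureTheory Filter Topology Vale.Agent.P102

/-- **One-set criterion for mixing of order three**, stated with Mathlib notions only.
Let `T` be an invertible bi-measurable transformation preserving the probability measure `μ`, and
assume that `T` is mixing: `μ (A ∩ T^{-n} B) → μ A * μ B`. Then `T` is mixing of order three,
`μ (A ∩ T^{-m} B ∩ T^{-(m+n)} C) → μ A * μ B * μ C` as `m, n → ∞` for all measurable `A, B, C`,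
if and only if `μ (A ∩ T^{-m} A ∩ T^{-(m+n)} A) → (μ A)^3` as `m, n → ∞` for every measurable `A`. -/
theorem result {Ω : Type*} [MeasurableSpace Ω] (μ : Measure Ω) [IsProbabilityMeasure μ]
    (T : Ω ≃ᵐ Ω) (hT : MeasurePreserving T μ μ)
    (hmix : ∀ A B : Set Ω, MeasurableSet A → MeasurableSet B →
      Tendsto (fun n : ℕ => μ.real (A ∩ (⇑T)^[n] ⁻¹' B)) atTop (𝓝 (μ.real A * μ.real B))) :
    (∀ A B C : Set Ω, MeasurableSet A → MeasurableSet B → MeasurableSet C →
      Tendsto (fun p : ℕ × ℕ => μ.real (A ∩ (⇑T)^[p.1] ⁻¹' B ∩ (⇑T)^[p.1 + p.2] ⁻¹' C)) atTop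
        (𝓝 (μ.real A * μ.real B * μ.real C))) ↔
    (∀ A : Set Ω, MeasurableSet A →
      Tendsto (fun p : ℕ × ℕ => μ.real (A ∩ (⇑T)^[p.1] ⁻¹' A ∩ (⇑T)^[p.1 + p.2] ⁻¹' A)) atTop
        (𝓝 (μ.real A ^ 3))) := by
  have e1 : ∀ n : ℕ, (ofEquiv T hT).S (n : ℤ) = (⇑T)^[n] := fun n => coe_zpow_natCast T n
  have e2 : ∀ m n : ℕ, (ofEquiv T hT).S ((m : ℤ) + (n : ℤ)) = (⇑T)^[m + n] := fun m n => by
    rw [← Nat.cast_add]
    exact coe_zpow_natCast T (m + n)
  have etau : ∀ A B C : Set Ω, (fun p : ℕ × ℕ => (ofEquiv T hT).tau p.1 (p.1 + p.2) A B C) =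
      fun p : ℕ × ℕ => μ.real (A ∩ (⇑T)^[p.1] ⁻¹' B ∩ (⇑T)^[p.1 + p.2] ⁻¹' C) := by
    intro A B C
    funext p
    unfold ZSys.tau
    rw [e1, e2]
  constructor
  · intro h A hA
    have h3 := h A A A hA hA hA
    have e : μ.real A * μ.real A * μ.real A = μ.real A ^ 3 := by ring
    rw [e] at h3
    exact h3
  · intro h
    have hM : (ofEquiv T hT).Mix2 := by
      intro X Y hX hY
      have e : (fun n : ℕ => (ofEquiv T hT).rho n X Y) =
          fun n : ℕ => μ.real (X ∩ (⇑T)^[n] ⁻¹' Y) := by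
        funext n
        unfold ZSys.rho
        rw [e1]
      rw [e]
      exact hmix X Y hX hY
    have hD : (ofEquiv T hT).Diag3 := by
      intro A hA
      rw [etau]
      exact h A hA
    intro A B C hA hB hC
    have h3 := (ofEquiv T hT).mix3_of_diag3 hM hD A B C hA hB hC
    rw [etau] at h3
    exact h3

end Vale.Agent.Results.P102.OneSetCriterion
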