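import Vale.Agent.P102.Interface

namespace Vale.Agent.Results.P102.RenyiThree

open MeasureTheory Vale.Agent.P102

/-- **One-set (Renyi type) criterion for mixing of order three.**
A mixing invertible probability preserving transformation `T` is mixing of order `3` if and only if
`μ (A ∩ T^{-m} A ∩ T^{-(m+n)} A) → μ (A)^3` as `m, n → ∞` for every single measurable set `A`. -/
theorem result {Ω : Type*} [MeasurableSpace Ω] (μ : Measure Ω) [IsProbabilityMeasure μ]
    (T : Ω ≃ᵐ Ω) (hT : MeasurePreserving T μ μ) (hmix : MixingOfOrder μ T 2) :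
    MixingOfOrder μ T 3 ↔
      ∀ A : Set Ω, MeasurableSet A → ∀ ε : ℝ, 0 < ε → ∃ N : ℕ, ∀ m n : ℕ, N ≤ m → N ≤ n →
        |μ.real (A ∩ (⇑T)^[m] ⁻¹' A ∩ (⇑T)^[m + n] ⁻¹' A) - μ.real A ^ 3| < ε :=
  ⟨statement_of_mixingOfOrder3 T, fun h => mixingOfOrder3_of_mix3 T hT
    ((ofEquiv T hT).mix3_of_diag3 (mix2_of_mixingOfOrder T hT hmix) (diag3_of_statement T hT h))⟩

end Vale.Agent.Results.P102.RenyiThree
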